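/-
helper28 -- S0356 squad (track D): DEFINITIONS.  Sorry-free; imported by every leaf.

S0356: for every large n a polytope K_n ⊂ ℝ^n with vol(ΠK_n)/vol(K_n)^(n-1) ≥ λ^n · (the same
ratio for the standard simplex).  K_n = T_10^k × T_1^r with n = 10 k + r, r < 10
(T_a = {x ≥ 0, ∑ x ≤ 1} ⊂ ℝ^a).  `sweep` and `Z` are reused from the S0355 definitions.
-/
import Crest.Agent.Helper28.S0355.Defs

set_option autoImplicit false
open MeasureTheory
open scoped ENNReal

namespace Crest.Agent.Helper28.S0356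

open Crest.Agent.Helper28.S0355 (sweep Z)

/-- Euclidean `n`-space. -/
abbrev En (n : ℕ) : Type := EuclideanSpace ℝ (Fin n)

/-- The corner simplex `{x ≥ 0, ∑ x ≤ 1}` in `ι → ℝ`. -/
def Tset (ι : Type) [Fintype ι] : Set (ι → ℝ) := {x | (∀ i, 0 ≤ x i) ∧ ∑ i, x i ≤ 1}

/-- `Sfun u = ∑ |u i| + |∑ u i|`: the support function of the zonotope `Z ι`. -/
def Sfun {ι : Type} [Fintype ι] (u : ι → ℝ) : ℝ := ∑ i, |u i| + |∑ i, u i|

/-- The `n + 1` linear functionals cutting out `Tset (Fin n)`: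
`lcS (inl j) x = - x j ≤ 0`, `lcS (inr ()) x = ∑ x ≤ 1`. -/
def lcS {n : ℕ} : Fin n ⊕ Unit → (Fin n → ℝ) → ℝ
  | Sum.inl j, x => - x j
  | Sum.inr _, x => ∑ i, x i

/-- Right-hand sides of the constraints of the simplex. -/
def bcS {n : ℕ} : Fin n ⊕ Unit → ℝ
  | Sum.inl _ => 0
  | Sum.inr _ => 1

/-- The facet of the simplex on which constraint `k` is tight. -/
def facetS {n : ℕ} (k : Fin n ⊕ Unit) : Set (Fin n → ℝ) :=
  {x | x ∈ Tset (Fin n) ∧ lcS k x = bcS k}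

/-- Lower bound for all sweeps of `K`: `vol (K + [0,1]u) ≥ vol K + H u`. -/
def SweepLB {V : Type*} [AddCommGroup V] [Module ℝ V] [MeasureSpace V] (K : Set V) (H : V → ℝ) :
    Prop :=
  ∀ u : V, volume K + ENNReal.ofReal (H u) ≤ volume (sweep K u)

/-- The model space `(ℝ^10)^k × (ℝ^1)^r`. -/
abbrev Mod (k r : ℕ) : Type := (Fin k → Fin 10 → ℝ) × (Fin r → Fin 1 → ℝ)

/-- The coordinatewise pairing on the model space. -/
def pairM {k r : ℕ} (x u : Mod k r) : ℝ :=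
  ∑ j, ∑ i, x.1 j i * u.1 j i + ∑ j, ∑ i, x.2 j i * u.2 j i

/-- The polytope `T_10^k × T_1^r` in the model space. -/
def KM (k r : ℕ) : Set (Mod k r) :=
  (Set.pi Set.univ (fun _ : Fin k => Tset (Fin 10))) ×ˢ
    (Set.pi Set.univ (fun _ : Fin r => Tset (Fin 1)))

/-- The vertices of the corner simplex. -/
def Vert (a : ℕ) : Set (Fin a → ℝ) :=
  insert 0 (Set.range (fun i : Fin a => (Pi.single i 1 : Fin a → ℝ)))

end Crest.Agent.Helper28.S0356
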