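/-
helper28 -- S0356 squad (track D): BLUEPRINT of the leaves.  All bodies are `sorry`;
THIS FILE IS NEVER IMPORTED by graded files.  An owner copies the statement of a leaf (same
name, same signature) into `Crest/Agent/<Seat>/S0356/<Package>.lean`, namespace
`Crest.Agent.<Seat>.S0356`, importing `Crest.Agent.Helper28.S0356.Defs` (+ landed leaf files of
S0355 / S0356 if needed), proves it sorry-free (axioms: propext, Classical.choice, Quot.sound),
runs the forbidden-text scan, lands the file, updates table `s0356_wp`, posts one line to helper28.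

Maths (notes/s0356/PROOF.md):  K_n = T_10^k × T_1^r  (n = 10k + r, r < 10),  λ = 1.01.
 * one simplex, any dimension n ≥ 1 (the S0355 computation with ONE block):
     vol(T_n + [0,1]u) = vol T_n + Sfun u / (2 (n-1)!)      (packages S1..S5)
 * shadow lemma in any dimension (SH);
 * product lemma by Tonelli (PR) and its iteration over `Fin k → V` (PW):
     vol(K₁×K₂ + [0,1](u₁,u₂)) ≥ vol K₁ vol K₂ + vol K₂ H₁(u₁) + vol K₁ H₂(u₂);
 * hence ΠK_n ⊇ product of scaled zonotopes, ΠT_n ⊆ Z_n / (2 (n-1)!)   (ZP);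
 * K_n is the convex hull of a finite set (CH); transport `Fin n → ℝ ≃ model space` (TR);
 * arithmetic (AR): 1.01^n (n+1) n^n / n! ≤ (11·10^10/10!)^k 2^r for n ≥ N.
-/
import Crest.Agent.Helper28.S0356.Defs

set_option autoImplicit false
open MeasureTheory
open scoped ENNReal Pointwise

namespace Crest.Agent.Helper28.S0356.Blueprint

open Crest.Agent.Helper28.S0355 (sweep Z)
open Crest.Agent.Helper28.S0356

/-! ## Package S1 -- Body: compactness / convexity (generalises S0355 package A) -/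

theorem isCompact_Tset (ι : Type) [Fintype ι] : IsCompact (Tset ι) := sorry

theorem convex_Tset (ι : Type) [Fintype ι] : Convex ℝ (Tset ι) := sorry

theorem isCompact_facetS {n : ℕ} (k : Fin n ⊕ Unit) : IsCompact (facetS k) := sorry

/-- `sweep C u` is the image of `C × [0,1]` under `(z, t) ↦ z + t • u`. -/
theorem isCompact_sweep {V : Type*} [NormedAddCommGroup V] [NormedSpace ℝ V] {C : Set V}
    (hC : IsCompact C) (u : V) : IsCompact (sweep C u) := sorry

/-! ## Package S2 -- Exit (generalises S0355 package C1; same proof with `n + 1` constraints) -/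

theorem mem_Tset_iff {n : ℕ} (x : Fin n → ℝ) :
    x ∈ Tset (Fin n) ↔ ∀ k : Fin n ⊕ Unit, lcS k x ≤ bcS k := sorry

theorem lcS_sub_smul {n : ℕ} (k : Fin n ⊕ Unit) (x u : Fin n → ℝ) (t : ℝ) :
    lcS k (x - t • u) = lcS k x - t * lcS k u := sorry

theorem sweep_Tset_subset {n : ℕ} (u : Fin n → ℝ) :
    sweep (Tset (Fin n)) u ⊆
      Tset (Fin n) ∪ ⋃ k : Fin n ⊕ Unit, if 0 < lcS k u then sweep (facetS k) u else ∅ := sorry

theorem Tset_inter_sweep_facetS_subset {n : ℕ} (u : Fin n → ℝ) (k : Fin n ⊕ Unit)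
    (hk : 0 < lcS k u) : Tset (Fin n) ∩ sweep (facetS k) u ⊆ {x | lcS k x = bcS k} := sorry

theorem sweep_facetS_inter_subset {n : ℕ} (u : Fin n → ℝ) (k k' : Fin n ⊕ Unit)
    (hk : 0 < lcS k u) (hk' : 0 < lcS k' u) :
    sweep (facetS k) u ∩ sweep (facetS k') u ⊆
      {x | lcS k' u * lcS k x - lcS k u * lcS k' x = lcS k' u * bcS k - lcS k u * bcS k'} := sorry

/-! ## Package S3 -- Null (generalises S0355 package C2)

`volume_lcS_pair`: for `inl i, inl j` the functional is `u j * x i - u i * x j` (`u i ≠ 0`);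
for `inl i, inr ()` it is `u i * ∑ x - (∑ u) * x i`, nonzero when `n ≥ 2` (coefficient `u i` at any
`m ≠ i`), and for `n = 1` the hypotheses `- u 0 > 0`, `u 0 > 0` are contradictory. -/

theorem volume_lcS_eq {n : ℕ} (k : Fin n ⊕ Unit) :
    volume {x : Fin n → ℝ | lcS k x = bcS k} = 0 := sorry

theorem volume_lcS_pair {n : ℕ} (u : Fin n → ℝ) (k k' : Fin n ⊕ Unit) (hne : k ≠ k')
    (hk : 0 < lcS k u) (hk' : 0 < lcS k' u) :
    volume {x : Fin n → ℝ |
      lcS k' u * lcS k x - lcS k u * lcS k' x = lcS k' u * bcS k - lcS k u * bcS k'} = 0 := sorry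

/-! ## Package S4 -- Prism over a coordinate facet (generalises S0355 package D1)

Base: `{y : Fin (n-1) → ℝ | insertNth j 0 y ∈ Tset (Fin n)} = Tset (Fin (n-1))`, of volume
`1/(n-1)!` (`Crest.Agent.Helper97.S0355.volume_simplex`, importable). -/

theorem volume_sweep_facetS_inl {n : ℕ} (u : Fin n → ℝ) (j : Fin n) (hj : u j < 0) :
    volume (sweep (facetS (Sum.inl j)) u) =
      ENNReal.ofReal (- u j / ((n - 1).factorial : ℝ)) := sorry

/-! ## Package S5 -- Prism over the slanted facet (generalises S0355 package D2)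

`Φ x = Function.update x m (1 - ∑ i, x i)` for any `m : Fin n`. -/

theorem volume_sweep_facetS_inr {n : ℕ}
    (hC : ∀ (v : Fin n → ℝ) (j : Fin n), v j < 0 →
      volume (sweep (facetS (Sum.inl j)) v) = ENNReal.ofReal (- v j / ((n - 1).factorial : ℝ)))
    (u : Fin n → ℝ) (h : 0 < lcS (Sum.inr ()) u) :
    volume (sweep (facetS (Sum.inr ())) u) =
      ENNReal.ofReal (lcS (Sum.inr ()) u / ((n - 1).factorial : ℝ)) := sorry

/-! ## Package SH -- Shadow lemma in every dimension (generalises S0355 B1-B3, 20 ↦ d + 1) -/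

theorem shadow_eq_sweep_gen (n : ℕ) (hn : 0 < n) (C : Set (En n)) (hC : IsCompact C)
    (hconv : Convex ℝ C) (u : En n) (hu : ‖u‖ = 1) :
    volume (sweep C u) =
      volume C + (μHE[n - 1] : Measure (En n)) ((fun y => y - inner ℝ y u • u) '' C) := sorry

/-! ## Package PR -- Product lemma (NEW; Tonelli, no facets)

`S = sweep (K₁ ×ˢ K₂) u = {(x₁,x₂) | ∃ t ∈ [0,1], x₁ - t u₁ ∈ K₁ ∧ x₂ - t u₂ ∈ K₂}` is compact.
`vol S = ∫⁻ x₂, vol {x₁ | (x₁,x₂) ∈ S}`.  For fixed `x₂` let `J = {t ∈ [0,1] | x₂ - t u₂ ∈ K₂}`,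
a compact interval `[a,b]` or empty (`K₂` convex).  The slice is
`{x₁ | ∃ t ∈ [a,b], x₁ - t u₁ ∈ K₁} = a • u₁ + sweep K₁ ((b-a) • u₁)`, of volume
`≥ vol K₁ + (b-a) H₁ u₁ = vol K₁ + |J| · H₁ u₁` (translation invariance, `h₁`, `hom₁`).  Hence
`vol S ≥ vol K₁ · vol {x₂ | J ≠ ∅} + H₁ u₁ · ∫⁻ x₂, |J(x₂)|`, where `{x₂ | J ≠ ∅} = sweep K₂ u₂`
(`≥ vol K₂ + H₂ u₂` by `h₂`) and `∫⁻ x₂, |J(x₂)| = ∫⁻ t ∈ [0,1], vol (K₂ + t u₂) = vol K₂`
(Tonelli for the closed set `{(x₂,t) | t ∈ [0,1], x₂ - t u₂ ∈ K₂}`). -/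

theorem sweepLB_prod {V₁ V₂ : Type*}
    [NormedAddCommGroup V₁] [NormedSpace ℝ V₁] [MeasureSpace V₁] [BorelSpace V₁]
    [SecondCountableTopology V₁] [SigmaFinite (volume : Measure V₁)]
    [(volume : Measure V₁).IsAddLeftInvariant] [IsFiniteMeasureOnCompacts (volume : Measure V₁)]
    [NormedAddCommGroup V₂] [NormedSpace ℝ V₂] [MeasureSpace V₂] [BorelSpace V₂]
    [SecondCountableTopology V₂] [SigmaFinite (volume : Measure V₂)]
    [(volume : Measure V₂).IsAddLeftInvariant] [IsFiniteMeasureOnCompacts (volume : Measure V₂)]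
    (K₁ : Set V₁) (K₂ : Set V₂) (H₁ : V₁ → ℝ) (H₂ : V₂ → ℝ)
    (hK₁ : IsCompact K₁) (hK₂ : IsCompact K₂) (hc₂ : Convex ℝ K₂)
    (h₁ : SweepLB K₁ H₁) (h₂ : SweepLB K₂ H₂)
    (hom₁ : ∀ s : ℝ, 0 ≤ s → ∀ u, H₁ (s • u) = s * H₁ u)
    (nn₁ : ∀ u, 0 ≤ H₁ u) (nn₂ : ∀ u, 0 ≤ H₂ u) :
    SweepLB (K₁ ×ˢ K₂)
      (fun u : V₁ × V₂ => (volume K₂).toReal * H₁ u.1 + (volume K₁).toReal * H₂ u.2) := sorry

/-! ## Package PW -- Powers: iterate the product lemma over `Fin k → V`

Induction on `k` with `MeasurableEquiv.piFinSuccAbove (fun _ => V) 0`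
(`volume_preserving_piFinSuccAbove`), which is linear and maps `Set.pi univ (fun _ => T)` to
`T ×ˢ Set.pi univ (fun _ => T)` and sweeps to sweeps; `volume (Set.pi univ fun _ => T) =
(volume T)^k` (`Measure.pi_pi`).  (`k = 0`: one point, both sides are `1`.) -/

theorem sweepLB_pi {V : Type*}
    [NormedAddCommGroup V] [NormedSpace ℝ V] [MeasureSpace V] [BorelSpace V]
    [SecondCountableTopology V] [SigmaFinite (volume : Measure V)]
    [(volume : Measure V).IsAddLeftInvariant] [IsFiniteMeasureOnCompacts (volume : Measure V)]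
    (T : Set V) (H : V → ℝ) (hT : IsCompact T) (hc : Convex ℝ T) (h : SweepLB T H)
    (hom : ∀ s : ℝ, 0 ≤ s → ∀ u, H (s • u) = s * H u) (nn : ∀ u, 0 ≤ H u) (k : ℕ) :
    SweepLB (Set.pi Set.univ (fun _ : Fin k => T))
      (fun u : Fin k → V => (volume T).toReal ^ (k - 1) * ∑ j, H (u j)) := sorry

/-! ## Package TR -- Transport to the model space

`volume_preserving_curry`: `Measure.pi_eq` on boxes (`Fintype.prod_prod_type`).
`exists_model`: `Fin (10k + r) ≃ (Fin k × Fin 10) ⊕ (Fin r × Fin 1)` (`finSumFinEquiv`,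
`finProdFinEquiv`, `Equiv.prodUnique` / `Fin 1`), then `MeasurableEquiv.piCongrLeft`
(`volume_measurePreserving_piCongrLeft`), `MeasurableEquiv.sumPiEquivProdPi`
(`volume_measurePreserving_sumPiEquivProdPi`), and currying in both factors. -/

theorem volume_preserving_curry (ι κ : Type) [Fintype ι] [Fintype κ] :
    MeasurePreserving (MeasurableEquiv.curry ι κ ℝ) volume volume := sorry

theorem exists_model (k r : ℕ) :
    ∃ Ψ : (Fin (10 * k + r) → ℝ) ≃ₗ[ℝ] Mod k r,
      MeasurePreserving (⇑Ψ) volume volume ∧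
        ∀ x u : Fin (10 * k + r) → ℝ, ∑ i, x i * u i = pairM (Ψ x) (Ψ u) := sorry

/-! ## Package ZP -- Zonotope pairing and the polar inclusions (generalises S0355 package F) -/

/-- For `w ∈ Z ι`: `∑ w i * v i ≤ Sfun v` (`c' = max (-1) (max w - 1)`), then scale. -/
theorem zonotope_pairing {ι : Type} [Fintype ι] (c : ℝ) (hc : 0 ≤ c) (z : ι → ℝ)
    (hz : z ∈ c • Z ι) (v : ι → ℝ) : ∑ i, z i * v i ≤ c * Sfun v := sorry

/-- Test directions `± e_j` and `(e_i - e_j)/√2` (homogenise first). -/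
theorem polar_simplex_subset (n : ℕ) (c : ℝ) (hc : 0 < c) :
    (⋂ u ∈ Metric.sphere (0 : En n) 1, {x : En n | inner ℝ x u ≤ c * Sfun (WithLp.ofLp u)}) ⊆
      WithLp.toLp 2 '' (c • Z (Fin n)) := sorry

/-- The polar set of any real-valued function is bounded (test `u = ± e_j`), so of finite volume. -/
theorem volume_polar_lt_top (n : ℕ) (h : En n → ℝ) :
    volume (⋂ u ∈ Metric.sphere (0 : En n) 1, {x : En n | inner ℝ x u ≤ h u}) < ⊤ := sorry

/-! ## Package CH -- Convex hull and interior -/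

/-- E.g. the image of `stdSimplex ℝ (Option (Fin a))` under a linear map
(`convexHull_basis_eq_stdSimplex`, `LinearMap.image_convexHull`), or directly. -/
theorem Tset_eq_convexHull (a : ℕ) : Tset (Fin a) = convexHull ℝ (Vert a) := sorry

/-- `interior s = ∅ → s ⊆ frontier s`, and `Convex.addHaar_frontier`. -/
theorem interior_nonempty_of_volume_pos {n : ℕ} {s : Set (En n)} (hs : Convex ℝ s)
    (h : 0 < volume s) : (interior s).Nonempty := sorry

/-! ## Package AR -- Arithmetic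

`n^n / n! ≤ exp n` (`Real.pow_div_factorial_le_exp`), `exp 1 < 2.7183` (`Real.exp_one_lt_d9`),
`11·10^10/10! ≥ (2.7183 · 1.01 · 1.01)^10` (norm_num), so with `n = 10k + r`, `r ≤ 9`:
`(11·10^10/10!)^k ≥ (2.7183·1.0201)^(n - r) ≥ (2.7183·1.0201)^n / (2.7183·1.0201)^9`, and it
remains `(n+1)·(2.7183·1.0201)^9 ≤ 1.01^n`, true for `n ≥ N` by Bernoulli
(`1.01^n ≥ 1 + n/100 + n(n-1)/20000`).  `2^r ≥ 1`. -/

theorem arith_final :
    ∃ N : ℕ, 20 ≤ N ∧ ∀ k r : ℕ, r < 10 → N ≤ 10 * k + r →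
      (1.01 : ℝ) ^ (10 * k + r) *
          ((((10 * k + r : ℕ) : ℝ) + 1) * ((10 * k + r : ℕ) : ℝ) ^ (10 * k + r) /
            ((10 * k + r).factorial : ℝ)) ≤
        (11 * 10 ^ 10 / (Nat.factorial 10 : ℝ)) ^ k * 2 ^ r := sorry

end Crest.Agent.Helper28.S0356.Blueprint
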