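/-
helper28 -- S0356 squad (track D): assembly part A (the sweep of one simplex), DRAFT against the
Blueprint.
-/
import Crest.Agent.Helper28.S0356.Blueprint
import Crest.Agent.Helper42.S0355.Union
import Crest.Agent.Helper97.S0355.Simplex

set_option autoImplicit false
open MeasureTheory
open scoped ENNReal Pointwise

namespace Crest.Agent.Helper28.S0356.DraftA

open Crest.Agent.Helper28.S0355 (sweep Z)
open Crest.Agent.Helper28.S0356

theorem max_neg_zero_eq (a : ℝ) : max (-a) 0 = (|a| - a) / 2 := by
  rcases le_total a 0 with h | h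
  · rw [max_eq_left (by linarith), abs_of_nonpos h]; ring
  · rw [max_eq_right (by linarith), abs_of_nonneg h]; ring

theorem max_zero_eq (a : ℝ) : max a 0 = (|a| + a) / 2 := by
  rcases le_total a 0 with h | h
  · rw [max_eq_right h, abs_of_nonpos h]; ring
  · rw [max_eq_left h, abs_of_nonneg h]; ring

theorem sum_pos_part_S {n : ℕ} (u : Fin n → ℝ) :
    ∑ k : Fin n ⊕ Unit, max (lcS k u) 0 = Sfun u / 2 := by
  rw [Fintype.sum_sum_type]
  have h1 : ∀ j : Fin n, max (lcS (Sum.inl j) u) 0 = (|u j| - u j) / 2 :=
    fun j => max_neg_zero_eq (u j)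
  have h2 : ∑ b : Unit, max (lcS (Sum.inr b) u) 0 = (|∑ i, u i| + ∑ i, u i) / 2 := by
    rw [Fintype.sum_unique]
    exact max_zero_eq (∑ i, u i)
  rw [Finset.sum_congr rfl (fun j _ => h1 j), h2, ← Finset.sum_div, Finset.sum_sub_distrib]
  unfold Sfun
  ring

theorem volume_Tset (n : ℕ) :
    volume (Tset (Fin n)) = ENNReal.ofReal (1 / (n.factorial : ℝ)) := by
  have h := Crest.Agent.Helper97.S0355.volume_simplex (Fin n)
  rw [Fintype.card_fin] at h
  exact h

theorem facet_term {n : ℕ} (u : Fin n → ℝ) (k : Fin n ⊕ Unit) :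
    (if 0 < lcS k u then volume (sweep (facetS k) u) else 0) =
      ENNReal.ofReal (max (lcS k u) 0 / ((n - 1).factorial : ℝ)) := by
  split_ifs with h
  · rw [max_eq_left h.le]
    rcases k with j | b
    · have hj : u j < 0 := by
        have : lcS (Sum.inl j) u = - u j := rfl
        rw [this] at h
        linarith
      exact Blueprint.volume_sweep_facetS_inl u j hj
    · exact Blueprint.volume_sweep_facetS_inr Blueprint.volume_sweep_facetS_inl u h
  · rw [max_eq_right (not_lt.mp h), zero_div, ENNReal.ofReal_zero]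

/-- the sweep of one simplex, every dimension -/
theorem volume_sweep_Tset {n : ℕ} (u : Fin n → ℝ) :
    volume (sweep (Tset (Fin n)) u) =
      volume (Tset (Fin n)) + ENNReal.ofReal (Sfun u / (2 * ((n - 1).factorial : ℝ))) := by
  have hfacet : ∀ k : Fin n ⊕ Unit, facetS k ⊆ Tset (Fin n) := fun k x hx => hx.1
  have hmono : ∀ k : Fin n ⊕ Unit, sweep (facetS k) u ⊆ sweep (Tset (Fin n)) u := by
    rintro k x ⟨t, ht, hx⟩
    exact ⟨t, ht, hfacet k hx⟩
  have key := Crest.Agent.Helper42.S0355.measure_union_of_null (volume : Measure (Fin n → ℝ))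
    (Tset (Fin n)) (sweep (Tset (Fin n)) u)
    (fun k : Fin n ⊕ Unit => if 0 < lcS k u then sweep (facetS k) u else ∅)
    (Blueprint.sweep_Tset_subset u)
    (by
      intro x hx
      exact ⟨0, ⟨le_refl _, zero_le_one⟩, by simpa using hx⟩)
    (by
      intro k
      split_ifs with h
      · exact hmono k
      · exact Set.empty_subset _)
    (Blueprint.isCompact_Tset (Fin n)).measurableSet
    (by
      intro k
      split_ifs with h
      · exact (Blueprint.isCompact_sweep (Blueprint.isCompact_facetS k) u).measurableSet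
      · exact MeasurableSet.empty)
    (by
      intro k
      split_ifs with h
      · exact measure_mono_null (Blueprint.Tset_inter_sweep_facetS_subset u k h)
          (Blueprint.volume_lcS_eq k)
      · simp)
    (by
      intro k k' hne
      by_cases h : 0 < lcS k u
      · by_cases h' : 0 < lcS k' u
        · rw [if_pos h, if_pos h']
          exact measure_mono_null (Blueprint.sweep_facetS_inter_subset u k k' h h')
            (Blueprint.volume_lcS_pair u k k' hne h h')
        · rw [if_neg h']
          simp
      · rw [if_neg h]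
        simp)
  rw [key]
  congr 1
  have e : ∀ k : Fin n ⊕ Unit,
      volume (if 0 < lcS k u then sweep (facetS k) u else ∅) =
        ENNReal.ofReal (max (lcS k u) 0 / ((n - 1).factorial : ℝ)) := by
    intro k
    rw [← facet_term u k]
    split_ifs with h
    · rfl
    · simp
  rw [Finset.sum_congr rfl (fun k _ => e k),
    ← ENNReal.ofReal_sum_of_nonneg (fun k _ => by positivity), ← Finset.sum_div, sum_pos_part_S]
  congr 1
  field_simp

theorem Sfun_nonneg {ι : Type} [Fintype ι] (u : ι → ℝ) : 0 ≤ Sfun u := by
  unfold Sfun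
  positivity

theorem Sfun_smul {ι : Type} [Fintype ι] (s : ℝ) (hs : 0 ≤ s) (u : ι → ℝ) :
    Sfun (s • u) = s * Sfun u := by
  unfold Sfun
  simp only [Pi.smul_apply, smul_eq_mul, abs_mul, ← Finset.mul_sum, abs_of_nonneg hs]
  ring

/-- the sweep lower bound for one simplex -/
theorem sweepLB_Tset (n : ℕ) :
    SweepLB (Tset (Fin n)) (fun u => Sfun u / (2 * ((n - 1).factorial : ℝ))) := by
  intro u
  rw [volume_sweep_Tset u]

end Crest.Agent.Helper28.S0356.DraftA
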