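/-
helper28 -- S0356 squad (track D): assembly part B (the model polytope `KM`), DRAFT against the
Blueprint.
-/
import Crest.Agent.Helper28.S0356.DraftA
import Crest.Agent.Helper88.S0355.VolZ

set_option autoImplicit false
open MeasureTheory
open scoped ENNReal Pointwise

namespace Crest.Agent.Helper28.S0356.DraftB

open Crest.Agent.Helper28.S0355 (sweep Z)
open Crest.Agent.Helper28.S0356

/-- `ν = vol K_n = (1/10!)^k` -/
noncomputable def nu (k : ℕ) : ℝ := (1 / (Nat.factorial 10 : ℝ)) ^ k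

theorem nu_pos (k : ℕ) : 0 < nu k := by
  unfold nu
  positivity

/-- the lower bound for the sweeps of `KM` -/
noncomputable def HM (k r : ℕ) (u : Mod k r) : ℝ :=
  nu k * (5 * ∑ j, Sfun (u.1 j) + (1 / 2) * ∑ j, Sfun (u.2 j))

/-- the product of scaled zonotopes inside the projection body -/
noncomputable def WM (k r : ℕ) : Set (Mod k r) :=
  (Set.pi Set.univ (fun _ : Fin k => (5 * nu k) • Z (Fin 10))) ×ˢ
    (Set.pi Set.univ (fun _ : Fin r => (nu k / 2) • Z (Fin 1)))

theorem volume_Q1 (k : ℕ) :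
    volume (Set.pi Set.univ (fun _ : Fin k => Tset (Fin 10))) = ENNReal.ofReal (nu k) := by
  rw [volume_pi_pi, Finset.prod_const, Finset.card_univ, Fintype.card_fin, DraftA.volume_Tset,
    ← ENNReal.ofReal_pow (by positivity)]
  rfl

theorem volume_Q2 (r : ℕ) :
    volume (Set.pi Set.univ (fun _ : Fin r => Tset (Fin 1))) = 1 := by
  rw [volume_pi_pi, Finset.prod_const, DraftA.volume_Tset]
  simp

theorem volume_KM (k r : ℕ) : volume (KM k r) = ENNReal.ofReal (nu k) := by
  unfold KM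
  rw [Measure.volume_eq_prod, Measure.prod_prod, volume_Q1, volume_Q2, mul_one]

theorem isCompact_KM (k r : ℕ) : IsCompact (KM k r) :=
  (isCompact_univ_pi (fun _ => Blueprint.isCompact_Tset (Fin 10))).prod
    (isCompact_univ_pi (fun _ => Blueprint.isCompact_Tset (Fin 1)))

theorem convex_KM (k r : ℕ) : Convex ℝ (KM k r) :=
  (convex_pi (fun _ _ => Blueprint.convex_Tset (Fin 10))).prod
    (convex_pi (fun _ _ => Blueprint.convex_Tset (Fin 1)))

theorem sweepLB_KM (k r : ℕ) : SweepLB (KM k r) (HM k r) := by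
  have hom : ∀ (a : ℕ) (s : ℝ), 0 ≤ s → ∀ u : Fin a → ℝ,
      Sfun (s • u) / (2 * ((a - 1).factorial : ℝ)) = s * (Sfun u / (2 * ((a - 1).factorial : ℝ))) := by
    intro a s hs u
    rw [DraftA.Sfun_smul s hs]
    ring
  have nn : ∀ (a : ℕ) (u : Fin a → ℝ), 0 ≤ Sfun u / (2 * ((a - 1).factorial : ℝ)) := by
    intro a u
    have := DraftA.Sfun_nonneg u
    positivity
  have P1 := Blueprint.sweepLB_pi (Tset (Fin 10)) _ (Blueprint.isCompact_Tset (Fin 10))
    (Blueprint.convex_Tset (Fin 10)) (DraftA.sweepLB_Tset 10) (hom 10) (nn 10) k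
  have P2 := Blueprint.sweepLB_pi (Tset (Fin 1)) _ (Blueprint.isCompact_Tset (Fin 1))
    (Blueprint.convex_Tset (Fin 1)) (DraftA.sweepLB_Tset 1) (hom 1) (nn 1) r
  have PP := Blueprint.sweepLB_prod _ _ _ _
    (isCompact_univ_pi (fun _ : Fin k => Blueprint.isCompact_Tset (Fin 10)))
    (isCompact_univ_pi (fun _ : Fin r => Blueprint.isCompact_Tset (Fin 1)))
    (convex_pi (fun _ _ => Blueprint.convex_Tset (Fin 1))) P1 P2
    (by
      intro s hs u
      simp only [Pi.smul_apply, hom 10 s hs, ← Finset.mul_sum]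
      ring)
    (by
      intro u
      exact mul_nonneg (by positivity) (Finset.sum_nonneg (fun j _ => nn 10 (u j))))
    (by
      intro u
      exact mul_nonneg (by positivity) (Finset.sum_nonneg (fun j _ => nn 1 (u j))))
  intro u
  have h := PP u
  have hfun : (volume (Set.pi Set.univ (fun _ : Fin r => Tset (Fin 1)))).toReal *
        ((volume (Tset (Fin 10))).toReal ^ (k - 1) *
          ∑ j, Sfun (u.1 j) / (2 * ((10 - 1 : ℕ).factorial : ℝ))) +
      (volume (Set.pi Set.univ (fun _ : Fin k => Tset (Fin 10)))).toReal *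
        ((volume (Tset (Fin 1))).toReal ^ (r - 1) *
          ∑ j, Sfun (u.2 j) / (2 * ((1 - 1 : ℕ).factorial : ℝ))) = HM k r u := by
    rw [volume_Q1, volume_Q2, DraftA.volume_Tset, DraftA.volume_Tset,
      ENNReal.toReal_ofReal (nu_pos k).le, ENNReal.toReal_ofReal (by positivity),
      ENNReal.toReal_ofReal (by positivity)]
    unfold HM
    simp only [ENNReal.toReal_one, one_mul, Nat.factorial, Nat.sub_self, Nat.cast_one, div_one,
      one_pow, mul_one]
    rw [← Finset.sum_div, ← Finset.sum_div]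
    rcases Nat.eq_zero_or_pos k with hk | hk
    · subst hk
      have e0 : ∑ j : Fin 0, Sfun (u.1 j) = 0 := by simp
      rw [e0]
      ring
    · have hnu : nu k = (1 / (Nat.factorial 10 : ℝ)) ^ (k - 1) * (1 / (Nat.factorial 10 : ℝ)) := by
        unfold nu
        rw [← pow_succ, Nat.sub_add_cancel hk]
      rw [hnu]
      norm_num [Nat.factorial]
      ring
  beta_reduce at h
  rw [hfun] at h
  exact h

theorem pair_le (k r : ℕ) (w : Mod k r) (hw : w ∈ WM k r) (u : Mod k r) :
    pairM w u ≤ HM k r u := by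
  obtain ⟨h1, h2⟩ := hw
  have hν := nu_pos k
  have a1 : ∀ j : Fin k, ∑ i, w.1 j i * u.1 j i ≤ (5 * nu k) * Sfun (u.1 j) := fun j =>
    Blueprint.zonotope_pairing (5 * nu k) (by positivity) (w.1 j) (h1 j (Set.mem_univ j)) (u.1 j)
  have a2 : ∀ j : Fin r, ∑ i, w.2 j i * u.2 j i ≤ (nu k / 2) * Sfun (u.2 j) := fun j =>
    Blueprint.zonotope_pairing (nu k / 2) (by positivity) (w.2 j) (h2 j (Set.mem_univ j)) (u.2 j)
  unfold pairM HM
  have b1 := Finset.sum_le_sum (fun j (_ : j ∈ Finset.univ) => a1 j)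
  have b2 := Finset.sum_le_sum (fun j (_ : j ∈ Finset.univ) => a2 j)
  rw [← Finset.mul_sum] at b1 b2
  nlinarith [b1, b2]

theorem volume_smul_Z (a : ℕ) (c : ℝ) (hc : 0 ≤ c) :
    volume (c • Z (Fin a)) = ENNReal.ofReal (c ^ a * (((a : ℝ) + 1) * 2 ^ a)) := by
  rw [Measure.addHaar_smul, Crest.Agent.Helper88.S0355.volume_Z, Fintype.card_fin,
    ← ENNReal.ofReal_mul (abs_nonneg _)]
  congr 1
  have : Module.finrank ℝ (Fin a → ℝ) = a := by simp
  rw [this, abs_of_nonneg (pow_nonneg hc a)]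

theorem volume_WM (k r : ℕ) :
    volume (WM k r) =
      ENNReal.ofReal (((5 * nu k) ^ 10 * (((10 : ℕ) : ℝ) + 1) * 2 ^ 10) ^ k *
        ((nu k / 2) ^ 1 * ((((1 : ℕ) : ℝ) + 1) * 2 ^ 1)) ^ r) := by
  have hν := nu_pos k
  unfold WM
  rw [Measure.volume_eq_prod, Measure.prod_prod, volume_pi_pi, volume_pi_pi, Finset.prod_const,
    Finset.prod_const, Finset.card_univ, Finset.card_univ, Fintype.card_fin, Fintype.card_fin,
    volume_smul_Z 10 _ (by positivity), volume_smul_Z 1 _ (by positivity),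
    ← ENNReal.ofReal_pow (by positivity), ← ENNReal.ofReal_pow (by positivity),
    ← ENNReal.ofReal_mul (by positivity)]
  congr 1
  ring

end Crest.Agent.Helper28.S0356.DraftB
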