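/-
helper28 -- S0356 squad (track D): assembly part C (transport, ratios, statement), from the landed leaves.
-/
import Crest.Agent.Helper28.S0356.Model
import Crest.Agent.Helper23.S0356.CH
import Crest.Agent.Helper23.S0356.TR
import Crest.Agent.Helper42.S0356.Arith
import Crest.Agent.Helper42.S0356.Body
import Crest.Agent.Helper54.S0356.SH
import Crest.Agent.Helper64.S0356.ZP

set_option autoImplicit false
open MeasureTheory
open scoped ENNReal Pointwise

namespace Crest.Agent.Helper28.S0356.Final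

open Crest.Agent.Helper28.S0355 (sweep Z)
open Crest.Agent.Helper28.S0356
open Crest.Agent.Helper28.S0356.Model

/-! ### transfer between `En n` and `Fin n → ℝ` -/

theorem preimage_sweep (n : ℕ) (A : Set (Fin n → ℝ)) (u : En n) :
    sweep ((WithLp.ofLp : En n → Fin n → ℝ) ⁻¹' A) u =
      WithLp.ofLp ⁻¹' (sweep A (WithLp.ofLp u)) := by
  ext x
  simp only [sweep, Set.mem_ofPred_eq, Set.mem_preimage, WithLp.ofLp_sub, WithLp.ofLp_smul]

theorem volume_preimage_ofLp (n : ℕ) (s : Set (Fin n → ℝ)) :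
    volume ((WithLp.ofLp : En n → Fin n → ℝ) ⁻¹' s) = volume s :=
  (EuclideanSpace.volume_preserving_symm_measurableEquiv_toLp (Fin n)).measure_preimage_equiv s

theorem isCompact_preimage_ofLp (n : ℕ) {A : Set (Fin n → ℝ)} (hA : IsCompact A) :
    IsCompact ((WithLp.ofLp : En n → Fin n → ℝ) ⁻¹' A) :=
  (EuclideanSpace.equiv (Fin n) ℝ).toHomeomorph.isCompact_preimage.mpr hA

theorem convex_preimage_ofLp (n : ℕ) {A : Set (Fin n → ℝ)} (hA : Convex ℝ A) :
    Convex ℝ ((WithLp.ofLp : En n → Fin n → ℝ) ⁻¹' A) :=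
  hA.linear_preimage (EuclideanSpace.equiv (Fin n) ℝ).toLinearEquiv.toLinearMap

theorem inner_eq_sum (n : ℕ) (x v : En n) : inner ℝ x v = ∑ k, x k * v k := by
  simp only [PiLp.inner_apply]
  apply Finset.sum_congr rfl
  intro i _
  simp
  ring

/-- the shadow lemma, read in the pi type -/
theorem shadow_transfer (n : ℕ) (hn : 0 < n) (A : Set (Fin n → ℝ)) (hA : IsCompact A)
    (hAc : Convex ℝ A) (u : En n) (hu : ‖u‖ = 1) :
    volume (sweep A (WithLp.ofLp u)) =
      volume A + (μHE[n - 1] : Measure (En n))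
        ((fun y => y - inner ℝ y u • u) '' ((WithLp.ofLp : En n → Fin n → ℝ) ⁻¹' A)) := by
  have h := Crest.Agent.Helper54.S0356.shadow_eq_sweep_gen n hn _ (isCompact_preimage_ofLp n hA)
    (convex_preimage_ofLp n hAc) u hu
  rwa [preimage_sweep, volume_preimage_ofLp, volume_preimage_ofLp] at h

/-! ### algebra -/

theorem AL1 (n : ℕ) (hn : 0 < n) :
    (1 / (2 * ((n - 1).factorial : ℝ))) ^ n * (((n : ℝ) + 1) * 2 ^ n) /
        (1 / (n.factorial : ℝ)) ^ (n - 1) =
      ((n : ℝ) + 1) * (n : ℝ) ^ n / (n.factorial : ℝ) := by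
  obtain ⟨m, rfl⟩ : ∃ m, n = m + 1 := ⟨n - 1, by omega⟩
  simp only [Nat.add_sub_cancel, Nat.factorial_succ]
  have ha : (0 : ℝ) < (m.factorial : ℝ) := by exact_mod_cast Nat.factorial_pos m
  have hb : (0 : ℝ) < ((m + 1 : ℕ) : ℝ) := by exact_mod_cast Nat.succ_pos m
  rw [Nat.cast_mul]
  generalize ((m + 1 : ℕ) : ℝ) = b at *
  generalize (m.factorial : ℝ) = a at *
  have e1 : (1 / (2 * a)) ^ (m + 1) * (2 : ℝ) ^ (m + 1) = (1 / a) ^ m * (1 / a) := by
    rw [← mul_pow, ← pow_succ]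
    congr 1
    field_simp
  have e2 : (1 / (b * a)) ^ m = (1 / b) ^ m * (1 / a) ^ m := by
    rw [← mul_pow]
    congr 1
    field_simp
  have e3 : (1 / b) ^ m * b ^ m = 1 := by
    rw [← mul_pow, one_div_mul_cancel hb.ne', one_pow]
  have e4 : (b + 1) * b ^ (m + 1) / (b * a) = (b + 1) * b ^ m / a := by
    rw [pow_succ]
    field_simp
  rw [e2, e4, div_eq_iff (by positivity)]
  linear_combination (b + 1) * e1 - ((b + 1) * (1 / a) ^ m / a) * e3

theorem AL2 (k r : ℕ) (hn : 0 < 10 * k + r) :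
    (((5 * nu k) ^ 10 * (((10 : ℕ) : ℝ) + 1) * 2 ^ 10) ^ k *
        ((nu k / 2) ^ 1 * ((((1 : ℕ) : ℝ) + 1) * 2 ^ 1)) ^ r) / nu k ^ (10 * k + r - 1) =
      (11 * 10 ^ 10 / (Nat.factorial 10 : ℝ)) ^ k * 2 ^ r := by
  have key : nu k * (11 * 10 ^ 10 : ℝ) ^ k = (11 * 10 ^ 10 / (Nat.factorial 10 : ℝ)) ^ k := by
    unfold nu
    rw [← mul_pow]
    congr 1
    ring
  have hν := nu_pos k
  generalize nu k = ν at *
  have e1 : ((5 * ν) ^ 10 * (((10 : ℕ) : ℝ) + 1) * 2 ^ 10) ^ k = ν ^ (10 * k) * (11 * 10 ^ 10) ^ k := by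
    rw [pow_mul, ← mul_pow]
    congr 1
    push_cast
    ring
  have e2 : ((ν / 2) ^ 1 * ((((1 : ℕ) : ℝ) + 1) * 2 ^ 1)) ^ r = ν ^ r * 2 ^ r := by
    rw [← mul_pow]
    congr 1
    push_cast
    ring
  have e3 : ν ^ (10 * k) * ν ^ r = ν ^ (10 * k + r - 1) * ν := by
    rw [← pow_add, ← pow_succ]
    congr 1
    omega
  rw [e1, e2, div_eq_iff (pow_pos hν _).ne', ← key]
  linear_combination ((11 * 10 ^ 10 : ℝ) ^ k * 2 ^ r) * e3

/-! ### the simplex side -/

theorem shadow_Tset (n : ℕ) (hn : 0 < n) (u : En n) (hu : ‖u‖ = 1) :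
    (μHE[n - 1] : Measure (En n))
        ((fun y => y - inner ℝ y u • u) '' ((WithLp.ofLp : En n → Fin n → ℝ) ⁻¹' Tset (Fin n))) =
      ENNReal.ofReal (Sfun (WithLp.ofLp u) / (2 * ((n - 1).factorial : ℝ))) := by
  have h := shadow_transfer n hn (Tset (Fin n)) (Crest.Agent.Helper42.S0356.isCompact_Tset _)
    (Crest.Agent.Helper42.S0356.convex_Tset _) u hu
  rw [SimplexSweep.volume_sweep_Tset] at h
  have hfin : volume (Tset (Fin n)) ≠ ⊤ := by
    rw [SimplexSweep.volume_Tset]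
    exact ENNReal.ofReal_ne_top
  exact ((ENNReal.add_right_inj hfin).mp h).symm

theorem ratio_simplex_le (n : ℕ) (hn : 0 < n) :
    (volume (⋂ u ∈ Metric.sphere (0 : EuclideanSpace ℝ (Fin n)) 1,
          {x : EuclideanSpace ℝ (Fin n) | inner ℝ x u ≤
            ((μHE[n - 1] : Measure (EuclideanSpace ℝ (Fin n))) ((fun y => y - inner ℝ y u • u) ''
              {x : EuclideanSpace ℝ (Fin n) | (∀ i, 0 ≤ x i) ∧ ∑ i, x i ≤ 1})).toReal})).toReal /
        (volume {x : EuclideanSpace ℝ (Fin n) | (∀ i, 0 ≤ x i) ∧ ∑ i, x i ≤ 1}).toReal ^ (n - 1) ≤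
      ((n : ℝ) + 1) * (n : ℝ) ^ n / (n.factorial : ℝ) := by
  have hTE : {x : EuclideanSpace ℝ (Fin n) | (∀ i, 0 ≤ x i) ∧ ∑ i, x i ≤ 1} =
      (WithLp.ofLp : En n → Fin n → ℝ) ⁻¹' Tset (Fin n) := rfl
  rw [hTE]
  set c : ℝ := 1 / (2 * ((n - 1).factorial : ℝ)) with hc
  have hcpos : 0 < c := by positivity
  have hpolar : (⋂ u ∈ Metric.sphere (0 : En n) 1,
        {x : En n | inner ℝ x u ≤
          ((μHE[n - 1] : Measure (En n)) ((fun y => y - inner ℝ y u • u) ''
            ((WithLp.ofLp : En n → Fin n → ℝ) ⁻¹' Tset (Fin n)))).toReal}) =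
      ⋂ u ∈ Metric.sphere (0 : En n) 1, {x : En n | inner ℝ x u ≤ c * Sfun (WithLp.ofLp u)} := by
    apply Set.iInter₂_congr
    intro u hu
    have hu1 : ‖u‖ = 1 := by simpa using hu
    rw [shadow_Tset n hn u hu1, ENNReal.toReal_ofReal
      (div_nonneg (SimplexSweep.Sfun_nonneg _) (by positivity))]
    have : Sfun (WithLp.ofLp u) / (2 * ((n - 1).factorial : ℝ)) = c * Sfun (WithLp.ofLp u) := by
      rw [hc]
      ring
    rw [this]
  rw [hpolar]
  have hsub := Crest.Agent.Helper64.S0356.polar_simplex_subset n c hcpos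
  have himg : (WithLp.toLp 2 '' (c • Z (Fin n)) : Set (En n)) = WithLp.ofLp ⁻¹' (c • Z (Fin n)) := by
    ext x
    constructor
    · rintro ⟨w, hw, rfl⟩
      exact hw
    · intro hx
      exact ⟨WithLp.ofLp x, hx, rfl⟩
  have hvol : volume (⋂ u ∈ Metric.sphere (0 : En n) 1,
      {x : En n | inner ℝ x u ≤ c * Sfun (WithLp.ofLp u)}) ≤
      ENNReal.ofReal (c ^ n * (((n : ℝ) + 1) * 2 ^ n)) := by
    refine (measure_mono hsub).trans ?_
    rw [himg, volume_preimage_ofLp, volume_smul_Z n c hcpos.le]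
  have hreal : (volume (⋂ u ∈ Metric.sphere (0 : En n) 1,
      {x : En n | inner ℝ x u ≤ c * Sfun (WithLp.ofLp u)})).toReal ≤
      c ^ n * (((n : ℝ) + 1) * 2 ^ n) := by
    have := ENNReal.toReal_mono ENNReal.ofReal_ne_top hvol
    rwa [ENNReal.toReal_ofReal (by positivity)] at this
  have hT : (volume ((WithLp.ofLp : En n → Fin n → ℝ) ⁻¹' Tset (Fin n))).toReal =
      1 / (n.factorial : ℝ) := by
    rw [volume_preimage_ofLp, SimplexSweep.volume_Tset, ENNReal.toReal_ofReal (by positivity)]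
  rw [hT, ← AL1 n hn]
  exact div_le_div_of_nonneg_right hreal (by positivity)

/-! ### the polytope side -/

theorem finite_Vert (a : ℕ) : (Vert a).Finite :=
  (Set.finite_range _).insert 0

theorem exists_polytope_aux (n k r : ℕ) (hn : 0 < n) (Ψ : (Fin n → ℝ) ≃ₗ[ℝ] Mod k r)
    (hΨmp : MeasurePreserving (⇑Ψ) volume volume)
    (hΨpair : ∀ x u : Fin n → ℝ, ∑ i, x i * u i = pairM (Ψ x) (Ψ u)) :
    ∃ S : Finset (EuclideanSpace ℝ (Fin n)),
      (interior (convexHull ℝ (S : Set (EuclideanSpace ℝ (Fin n))))).Nonempty ∧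
      (volume (WM k r)).toReal / nu k ^ (n - 1) ≤
        (volume (⋂ u ∈ Metric.sphere (0 : EuclideanSpace ℝ (Fin n)) 1,
          {x : EuclideanSpace ℝ (Fin n) | inner ℝ x u ≤
            ((μHE[n - 1] : Measure (EuclideanSpace ℝ (Fin n)))
              ((fun y => y - inner ℝ y u • u) ''
                (convexHull ℝ (S : Set (EuclideanSpace ℝ (Fin n)))))).toReal})).toReal /
          (volume (convexHull ℝ (S : Set (EuclideanSpace ℝ (Fin n))))).toReal ^ (n - 1) := by
  let Ψc : (Fin n → ℝ) ≃L[ℝ] Mod k r := Ψ.toContinuousLinearEquiv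
  let e : (Fin n → ℝ) ≃ᵐ Mod k r := Ψc.toHomeomorph.toMeasurableEquiv
  have hmp : MeasurePreserving e volume volume := hΨmp
  have hν := nu_pos k
  set KP : Set (Fin n → ℝ) := Ψ ⁻¹' KM k r with hKP
  have hKPc : IsCompact KP := Ψc.toHomeomorph.isCompact_preimage.mpr (isCompact_KM k r)
  have hKPconv : Convex ℝ KP := (convex_KM k r).linear_preimage Ψ.toLinearMap
  have hvolKP : volume KP = ENNReal.ofReal (nu k) := by
    rw [← volume_KM k r]
    exact hmp.measure_preimage_equiv _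
  have hsweep : ∀ u : Fin n → ℝ, sweep KP u = Ψ ⁻¹' sweep (KM k r) (Ψ u) := by
    intro u
    ext x
    simp only [sweep, hKP, Set.mem_ofPred_eq, Set.mem_preimage, map_sub, map_smul]
  have hLB : ∀ u : Fin n → ℝ,
      ENNReal.ofReal (nu k) + ENNReal.ofReal (HM k r (Ψ u)) ≤ volume (sweep KP u) := by
    intro u
    have h1 : volume (sweep KP u) = volume (sweep (KM k r) (Ψ u)) := by
      rw [hsweep]
      exact hmp.measure_preimage_equiv _
    rw [h1, ← volume_KM k r]
    exact sweepLB_KM k r (Ψ u)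
  set KE : Set (En n) := (WithLp.ofLp : En n → Fin n → ℝ) ⁻¹' KP with hKE
  have hshadow : ∀ u : En n, ‖u‖ = 1 → HM k r (Ψ (WithLp.ofLp u)) ≤
      ((μHE[n - 1] : Measure (En n)) ((fun y => y - inner ℝ y u • u) '' KE)).toReal := by
    intro u hu
    have h := shadow_transfer n hn KP hKPc hKPconv u hu
    have hfin : volume (sweep KP (WithLp.ofLp u)) ≠ ⊤ :=
      (Crest.Agent.Helper42.S0356.isCompact_sweep hKPc _).measure_lt_top.ne
    have h2 := hLB (WithLp.ofLp u)
    rw [h, hvolKP] at h2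
    have h3 := (ENNReal.add_le_add_iff_left ENNReal.ofReal_ne_top).mp h2
    have h4 : (μHE[n - 1] : Measure (En n)) ((fun y => y - inner ℝ y u • u) '' KE) ≠ ⊤ := by
      intro htop
      rw [h, htop] at hfin
      simp at hfin
    exact (ENNReal.ofReal_le_iff_le_toReal h4).mp h3
  set WE : Set (En n) := (WithLp.ofLp : En n → Fin n → ℝ) ⁻¹' (Ψ ⁻¹' WM k r) with hWE
  have hsub : WE ⊆ ⋂ u ∈ Metric.sphere (0 : En n) 1, {x : En n | inner ℝ x u ≤
      ((μHE[n - 1] : Measure (En n)) ((fun y => y - inner ℝ y u • u) '' KE)).toReal} := by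
    intro x hx
    simp only [Set.mem_iInter, Set.mem_ofPred_eq]
    intro u hu
    have hu1 : ‖u‖ = 1 := by simpa using hu
    calc inner ℝ x u = ∑ i, x i * u i := inner_eq_sum n x u
      _ = pairM (Ψ (WithLp.ofLp x)) (Ψ (WithLp.ofLp u)) := hΨpair _ _
      _ ≤ HM k r (Ψ (WithLp.ofLp u)) := pair_le k r _ hx _
      _ ≤ _ := hshadow u hu1
  have hvolWE : volume WE = volume (WM k r) := by
    rw [hWE, volume_preimage_ofLp]
    exact hmp.measure_preimage_equiv _
  have hPfin := Crest.Agent.Helper64.S0356.volume_polar_lt_top n (fun u =>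
    ((μHE[n - 1] : Measure (En n)) ((fun y => y - inner ℝ y u • u) '' KE)).toReal)
  have hPge : (volume (WM k r)).toReal ≤
      (volume (⋂ u ∈ Metric.sphere (0 : En n) 1, {x : En n | inner ℝ x u ≤
        ((μHE[n - 1] : Measure (En n)) ((fun y => y - inner ℝ y u • u) '' KE)).toReal})).toReal := by
    rw [← hvolWE]
    exact ENNReal.toReal_mono hPfin.ne (measure_mono hsub)
  have hvolKE : volume KE = ENNReal.ofReal (nu k) := by
    rw [hKE, volume_preimage_ofLp, hvolKP]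
  have hKEconv : Convex ℝ KE := convex_preimage_ofLp n hKPconv
  -- the convex hull representation
  set VM : Set (Mod k r) :=
    (Set.pi Set.univ (fun _ : Fin k => Vert 10)) ×ˢ (Set.pi Set.univ (fun _ : Fin r => Vert 1))
    with hVM
  have hVMfin : VM.Finite :=
    (Set.Finite.pi (fun _ => finite_Vert 10)).prod (Set.Finite.pi (fun _ => finite_Vert 1))
  have hKMhull : KM k r = convexHull ℝ VM := by
    unfold KM
    rw [hVM, convexHull_prod, convexHull_pi, convexHull_pi]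
    simp only [← Crest.Agent.Helper23.S0356.Tset_eq_convexHull]
  let L : Mod k r →ₗ[ℝ] En n :=
    (WithLp.linearEquiv 2 ℝ (Fin n → ℝ)).symm.toLinearMap ∘ₗ Ψ.symm.toLinearMap
  have hL : ∀ m : Mod k r, Ψ (WithLp.ofLp (L m)) = m := by
    intro m
    simp [L]
  have hL' : ∀ x : En n, L (Ψ (WithLp.ofLp x)) = x := by
    intro x
    simp [L]
  have hKEimg : KE = L '' KM k r := by
    ext x
    constructor
    · intro hx
      exact ⟨Ψ (WithLp.ofLp x), hx, hL' x⟩
    · rintro ⟨m, hm, rfl⟩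
      show Ψ (WithLp.ofLp (L m)) ∈ KM k r
      rw [hL]
      exact hm
  have hS : convexHull ℝ ((hVMfin.image L).toFinset : Set (En n)) = KE := by
    rw [Set.Finite.coe_toFinset, ← L.image_convexHull, ← hKMhull, hKEimg]
  refine ⟨(hVMfin.image L).toFinset, ?_, ?_⟩
  · rw [hS]
    apply Crest.Agent.Helper23.S0356.interior_nonempty_of_volume_pos hKEconv
    rw [hvolKE]
    exact ENNReal.ofReal_pos.mpr hν
  · rw [hS, hvolKE, ENNReal.toReal_ofReal hν.le]
    exact div_le_div_of_nonneg_right hPge (by positivity)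

theorem exists_polytope (k r : ℕ) (hn : 0 < 10 * k + r) :
    ∃ S : Finset (EuclideanSpace ℝ (Fin (10 * k + r))),
      (interior (convexHull ℝ (S : Set (EuclideanSpace ℝ (Fin (10 * k + r)))))).Nonempty ∧
      (11 * 10 ^ 10 / (Nat.factorial 10 : ℝ)) ^ k * 2 ^ r ≤
        (volume (⋂ u ∈ Metric.sphere (0 : EuclideanSpace ℝ (Fin (10 * k + r))) 1,
          {x : EuclideanSpace ℝ (Fin (10 * k + r)) | inner ℝ x u ≤
            ((μHE[10 * k + r - 1] : Measure (EuclideanSpace ℝ (Fin (10 * k + r))))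
              ((fun y => y - inner ℝ y u • u) ''
                (convexHull ℝ (S : Set (EuclideanSpace ℝ (Fin (10 * k + r))))))).toReal})).toReal /
          (volume (convexHull ℝ (S : Set (EuclideanSpace ℝ (Fin (10 * k + r)))))).toReal ^
            (10 * k + r - 1) := by
  obtain ⟨Ψ, hΨmp, hΨpair⟩ := Crest.Agent.Helper23.S0356.TR.exists_model k r
  obtain ⟨S, h1, h2⟩ := exists_polytope_aux (10 * k + r) k r hn Ψ hΨmp hΨpair
  refine ⟨S, h1, ?_⟩
  have hW : (volume (WM k r)).toReal =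
      ((5 * nu k) ^ 10 * (((10 : ℕ) : ℝ) + 1) * 2 ^ 10) ^ k *
        ((nu k / 2) ^ 1 * ((((1 : ℕ) : ℝ) + 1) * 2 ^ 1)) ^ r := by
    have hν := nu_pos k
    rw [volume_WM, ENNReal.toReal_ofReal (by positivity)]
  rw [← AL2 k r hn, ← hW]
  exact h2

/-! ### the statement -/

theorem result_final :
    ∃ lam : ℝ, 1 < lam ∧ ∃ N : ℕ, 20 ≤ N ∧ ∀ n : ℕ, N ≤ n →
      ∃ S : Finset (EuclideanSpace ℝ (Fin n)),
        (interior (convexHull ℝ (S : Set (EuclideanSpace ℝ (Fin n))))).Nonempty ∧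
        lam ^ n *
            ((volume (⋂ u ∈ Metric.sphere (0 : EuclideanSpace ℝ (Fin n)) 1,
          {x : EuclideanSpace ℝ (Fin n) | inner ℝ x u ≤
            ((μHE[n - 1] : Measure (EuclideanSpace ℝ (Fin n))) ((fun y => y - inner ℝ y u • u) '' {x : EuclideanSpace ℝ (Fin n) | (∀ i, 0 ≤ x i) ∧ ∑ i, x i ≤ 1})).toReal})).toReal /
              (volume {x : EuclideanSpace ℝ (Fin n) | (∀ i, 0 ≤ x i) ∧ ∑ i, x i ≤ 1}).toReal ^ (n - 1)) ≤
          (volume (⋂ u ∈ Metric.sphere (0 : EuclideanSpace ℝ (Fin n)) 1,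
          {x : EuclideanSpace ℝ (Fin n) | inner ℝ x u ≤
            ((μHE[n - 1] : Measure (EuclideanSpace ℝ (Fin n))) ((fun y => y - inner ℝ y u • u) '' (convexHull ℝ (S : Set (EuclideanSpace ℝ (Fin n)))))).toReal})).toReal /
            (volume (convexHull ℝ (S : Set (EuclideanSpace ℝ (Fin n))))).toReal ^ (n - 1) := by
  obtain ⟨N, hN, hA⟩ := Crest.Agent.Helper42.S0356.arith_final
  refine ⟨1.01, by norm_num, N, hN, ?_⟩
  intro n hn
  obtain ⟨k, r, hr, rfl⟩ : ∃ k r, r < 10 ∧ n = 10 * k + r :=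
    ⟨n / 10, n % 10, Nat.mod_lt _ (by norm_num), (Nat.div_add_mod n 10).symm⟩
  have hpos : 0 < 10 * k + r := by omega
  obtain ⟨S, hSint, hSratio⟩ := exists_polytope k r hpos
  refine ⟨S, hSint, ?_⟩
  have h1 := ratio_simplex_le (10 * k + r) hpos
  have h2 := hA k r hr hn
  exact ((mul_le_mul_of_nonneg_left h1 (by positivity)).trans h2).trans hSratio

end Crest.Agent.Helper28.S0356.Final
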